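import Vale.Agent.P097.H402.Alg.Defs

/-! # P097 / ALG-EI: the chord map near an isotropic end, coordinates `ξ, δ` -/

set_option linter.all false

open Complex Metric Filter Topology Set

namespace Vale.Agent.P097.Alg.Iso

open Vale.Agent.P097.NZ

variable {s : ℂ} {N : ℕ} {k : ℤ} {R : ℂ → ℂ} {ξ ξ₁ ψ₁ : ℂ}

theorem ki_an (hR : AnalyticAt ℂ R ξ) (v : ℂ) :
    AnalyticAt ℂ (fun q : (ℂ × ℂ) × ℂ => ki s N k R q.1 q.2) ((ξ, 0), v) := by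
  have h1 : AnalyticAt ℂ (fun q : (ℂ × ℂ) × ℂ => q.1.2 * q.2) ((ξ, 0), v) :=
    (an12 _).mul analyticAt_snd
  have h2 : AnalyticAt ℂ (fun q : (ℂ × ℂ) × ℂ =>
      Complex.exp (s * I * (k / N) * (q.1.2 * q.2))) ((ξ, 0), v) :=
    (analyticAt_const.mul h1).cexp
  have h3 : AnalyticAt ℂ (fun q : (ℂ × ℂ) × ℂ =>
      q.1.1 * Complex.exp (s * I * (q.1.2 * q.2) / N)) ((ξ, 0), v) :=
    (an11 _).mul ((analyticAt_const.mul h1).div_const).cexp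
  have h5 : AnalyticAt ℂ (fun q : (ℂ × ℂ) × ℂ => q.1.2 * (q.2 - 1)) ((ξ, 0), v) :=
    (an12 _).mul (analyticAt_snd.sub analyticAt_const)
  exact (h2.mul (hR.comp_of_eq h3 (by simp))).mul ((snc_an _).comp_of_eq h5 rfl)

theorem ki_axis (v : ℂ) : ki s N k R (ξ, 0) v = R ξ := by
  simp [ki, snc_zero]

theorem ri_an (A : RootA) (hR : AnalyticAt ℂ R ξ) (h0 : R ξ ≠ 0) :
    AnalyticAt ℂ (ri s N k R) (ξ, 0) :=
  (A (ki s N k R) (ξ, 0) (R ξ) h0 (fun v _ => ki_an hR v) (fun v _ => ki_axis v)).1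

theorem ri_axis (A : RootA) (hR : AnalyticAt ℂ R ξ) (h0 : R ξ ≠ 0) : ri s N k R (ξ, 0) = 2 :=
  (A (ki s N k R) (ξ, 0) (R ξ) h0 (fun v _ => ki_an hR v) (fun v _ => ki_axis v)).2.1

theorem Ti_eq (p : ℂ × ℂ) : Ti s N k R p =
    (p.1 * Complex.exp (s * I * (p.2 * ri s N k R p) / N), p.2 * (ri s N k R p - 1)) := rfl

theorem Ti_an (A : RootA) (hR : AnalyticAt ℂ R ξ) (h0 : R ξ ≠ 0) :
    AnalyticAt ℂ (Ti s N k R) (ξ, 0) := by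
  have h1 := ri_an (s := s) (N := N) (k := k) A hR h0
  have h2 : AnalyticAt ℂ (fun p : ℂ × ℂ => p.1) (ξ, 0) := analyticAt_fst
  have h3 : AnalyticAt ℂ (fun p : ℂ × ℂ => p.2) (ξ, 0) := analyticAt_snd
  have h4 : AnalyticAt ℂ (fun p : ℂ × ℂ =>
      Complex.exp (s * I * (p.2 * ri s N k R p) / N)) (ξ, 0) :=
    ((analyticAt_const.mul (h3.mul h1)).div_const).cexp
  exact (h2.mul h4).prod (h3.mul (h1.sub analyticAt_const))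

theorem Ti_axis (ξ : ℂ) : Ti s N k R (ξ, 0) = (ξ, 0) := by
  simp [Ti]

theorem Ti_iter_axis (ξ : ℂ) (j : ℕ) : (Ti s N k R)^[j] (ξ, 0) = (ξ, 0) := by
  induction j with
  | zero => rfl
  | succ j ih => rw [Function.iterate_succ', Function.comp_apply, ih, Ti_axis]

theorem Ti_iter_an (A : RootA) (hR : AnalyticAt ℂ R ξ) (h0 : R ξ ≠ 0) (j : ℕ) :
    AnalyticAt ℂ (Ti s N k R)^[j] (ξ, 0) := by
  induction j with
  | zero => exact analyticAt_id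
  | succ j ih =>
    rw [Function.iterate_succ']
    exact (Ti_an A hR h0).comp_of_eq ih (Ti_iter_axis ξ j)

/-- `δ_j = δ qq_j` -/
noncomputable def qq (s : ℂ) (N : ℕ) (k : ℤ) (R : ℂ → ℂ) : ℕ → ℂ × ℂ → ℂ
  | 0, _ => 1
  | j + 1, p => qq s N k R j p * (ri s N k R ((Ti s N k R)^[j] p) - 1)

/-- `ψ_j = ψ + δ gg_j` -/
noncomputable def gg (s : ℂ) (N : ℕ) (k : ℤ) (R : ℂ → ℂ) : ℕ → ℂ × ℂ → ℂ
  | 0, _ => 0
  | j + 1, p => gg s N k R j p + qq s N k R j p * ri s N k R ((Ti s N k R)^[j] p)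

theorem ri_iter_an (A : RootA) (hR : AnalyticAt ℂ R ξ) (h0 : R ξ ≠ 0) (j : ℕ) :
    AnalyticAt ℂ (fun p => ri s N k R ((Ti s N k R)^[j] p)) (ξ, 0) :=
  (ri_an A hR h0).comp_of_eq (Ti_iter_an A hR h0 j) (Ti_iter_axis ξ j)

theorem qq_an (A : RootA) (hR : AnalyticAt ℂ R ξ) (h0 : R ξ ≠ 0) (j : ℕ) :
    AnalyticAt ℂ (qq s N k R j) (ξ, 0) := by
  induction j with
  | zero => exact analyticAt_const
  | succ j ih => exact ih.mul ((ri_iter_an A hR h0 j).sub analyticAt_const)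

theorem gg_an (A : RootA) (hR : AnalyticAt ℂ R ξ) (h0 : R ξ ≠ 0) (j : ℕ) :
    AnalyticAt ℂ (gg s N k R j) (ξ, 0) := by
  induction j with
  | zero => exact analyticAt_const
  | succ j ih => exact ih.add ((qq_an A hR h0 j).mul (ri_iter_an A hR h0 j))

theorem qq_axis (A : RootA) (hR : AnalyticAt ℂ R ξ) (h0 : R ξ ≠ 0) (j : ℕ) :
    qq s N k R j (ξ, 0) = 1 := by
  induction j with
  | zero => rfl
  | succ j ih =>
    rw [qq, ih, Ti_iter_axis, ri_axis A hR h0]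
    norm_num

theorem gg_axis (A : RootA) (hR : AnalyticAt ℂ R ξ) (h0 : R ξ ≠ 0) (j : ℕ) :
    gg s N k R j (ξ, 0) = 2 * j := by
  induction j with
  | zero => simp [gg]
  | succ j ih =>
    rw [gg, ih, qq_axis A hR h0, Ti_iter_axis, ri_axis A hR h0]
    push_cast
    ring

/-! ## the semi-conjugacy -/

/-- the coordinate change -/
noncomputable def QQ (s : ℂ) (N : ℕ) (ψ₁ ξ₁ : ℂ) (p : ℂ × ℂ) : ℂ × ℂ := (xiI s N ψ₁ ξ₁ p.1, p.2)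

theorem xiI_cont : Continuous (xiI s N ψ₁ ξ₁) := by
  unfold xiI
  fun_prop

theorem xiI_self : xiI s N ψ₁ ξ₁ ψ₁ = ξ₁ := by
  simp [xiI]

theorem xiI_add (ψ u : ℂ) :
    xiI s N ψ₁ ξ₁ (ψ + u) = xiI s N ψ₁ ξ₁ ψ * Complex.exp (s * I * u / N) := by
  unfold xiI
  rw [mul_assoc ξ₁, ← Complex.exp_add]
  congr 2
  ring

theorem xiI_ne (h : ξ₁ ≠ 0) (ψ : ℂ) : xiI s N ψ₁ ξ₁ ψ ≠ 0 :=
  mul_ne_zero h (Complex.exp_ne_zero _)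

theorem xiI_zpow (ψ u : ℂ) : xiI s N ψ₁ ξ₁ (ψ + u) ^ k =
    xiI s N ψ₁ ξ₁ ψ ^ k * Complex.exp (s * I * (k / N) * u) := by
  rw [xiI_add, mul_zpow, ← Complex.exp_int_mul]
  congr 2
  ring

theorem QQ_cont : Continuous (QQ s N ψ₁ ξ₁) := by
  unfold QQ
  exact (xiI_cont.comp continuous_fst).prodMk continuous_snd

theorem QQ_axis (ψ : ℂ) : QQ s N ψ₁ ξ₁ (ψ, 0) = (xiI s N ψ₁ ξ₁ ψ, 0) := rfl

theorem QQ_tendsto (ψ : ℂ) : Tendsto (QQ s N ψ₁ ξ₁) (𝓝 ((ψ, 0) : ℂ × ℂ))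
    (𝓝 (xiI s N ψ₁ ξ₁ ψ, 0)) := by
  have := (QQ_cont (s := s) (N := N) (ψ₁ := ψ₁) (ξ₁ := ξ₁)).tendsto (ψ, 0)
  rwa [QQ_axis] at this

/-- the branch of the radius of curvature -/
noncomputable def rhoI (s : ℂ) (N : ℕ) (k : ℤ) (R : ℂ → ℂ) (ψ₁ ξ₁ ψ : ℂ) : ℂ :=
  xiI s N ψ₁ ξ₁ ψ ^ k * R (xiI s N ψ₁ ξ₁ ψ)

theorem kr_eq (p : ℂ × ℂ) (v : ℂ) : kr (rhoI s N k R ψ₁ ξ₁) p v =
    xiI s N ψ₁ ξ₁ p.1 ^ k * ki s N k R (QQ s N ψ₁ ξ₁ p) v := by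
  rw [kr, rhoI, xiI_zpow, xiI_add, ki, QQ]
  ring

theorem rt_eq (h : ξ₁ ≠ 0) (p : ℂ × ℂ) :
    rt (rhoI s N k R ψ₁ ξ₁) p = ri s N k R (QQ s N ψ₁ ξ₁ p) :=
  root_congr (zpow_ne_zero k (xiI_ne h p.1)) fun v _ => kr_eq p v

/-- semi-conjugacy -/
theorem semi (h : ξ₁ ≠ 0) (p : ℂ × ℂ) :
    QQ s N ψ₁ ξ₁ (TT (rhoI s N k R ψ₁ ξ₁) p) = Ti s N k R (QQ s N ψ₁ ξ₁ p) := by
  rw [TT_eq, rt_eq h, Ti_eq]
  refine Prod.ext ?_ rfl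
  show xiI s N ψ₁ ξ₁ (p.1 + p.2 * ri s N k R (QQ s N ψ₁ ξ₁ p)) = _
  rw [xiI_add]
  rfl

theorem semi_iter (h : ξ₁ ≠ 0) (j : ℕ) (p : ℂ × ℂ) :
    QQ s N ψ₁ ξ₁ ((TT (rhoI s N k R ψ₁ ξ₁))^[j] p) = (Ti s N k R)^[j] (QQ s N ψ₁ ξ₁ p) := by
  induction j with
  | zero => rfl
  | succ j ih =>
    rw [Function.iterate_succ', Function.comp_apply, semi h, ih, Function.iterate_succ',
      Function.comp_apply]

theorem iter_eq (h : ξ₁ ≠ 0) (j : ℕ) (p : ℂ × ℂ) :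
    (TT (rhoI s N k R ψ₁ ξ₁))^[j] p =
      (p.1 + p.2 * gg s N k R j (QQ s N ψ₁ ξ₁ p), p.2 * qq s N k R j (QQ s N ψ₁ ξ₁ p)) := by
  induction j with
  | zero => simp [gg, qq]
  | succ j ih =>
    have h1 := semi_iter (s := s) (N := N) (k := k) (R := R) (ψ₁ := ψ₁) h j p
    rw [Function.iterate_succ', Function.comp_apply, TT_eq, rt_eq h, h1, ih, gg, qq]
    refine Prod.ext ?_ ?_
    · simp only
      ring
    · simp only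
      ring

/-- the reduced approximate logarithm -/
noncomputable def Dhi (s : ℂ) (N : ℕ) (k : ℤ) (R : ℂ → ℂ) (m : ℕ) (p : ℂ × ℂ) : ℂ :=
  NF m fun j => gg s N k R j p

theorem Dk_eq (h : ξ₁ ≠ 0) (m : ℕ) (p : ℂ × ℂ) :
    Dk (TT (rhoI s N k R ψ₁ ξ₁)) m p = p.2 * Dhi s N k R m (QQ s N ψ₁ ξ₁ p) := by
  have h2 : Dk (TT (rhoI s N k R ψ₁ ξ₁)) m p =
      NF m fun j => p.1 + p.2 * gg s N k R j (QQ s N ψ₁ ξ₁ p) := by
    rw [Dk_eq_NF]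
    congr 1
    funext j
    rw [iter_eq h]
  rw [h2, NF_add, NF_const, zero_add, NF_mul, Dhi]

theorem Dhi_an (A : RootA) (hR : AnalyticAt ℂ R ξ) (h0 : R ξ ≠ 0) (m : ℕ) :
    AnalyticAt ℂ (Dhi s N k R m) (ξ, 0) := by
  unfold Dhi NF
  refine Finset.analyticAt_fun_sum _ fun n _ => ?_
  refine analyticAt_const.mul ?_
  refine Finset.analyticAt_fun_sum _ fun j _ => ?_
  exact analyticAt_const.mul (gg_an A hR h0 j)

/-- the generating functions of the reduced coefficients -/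
noncomputable def Wi (s : ℂ) (N : ℕ) (k : ℤ) (R : ℂ → ℂ) (m : ℕ) (p : ℂ × ℂ) : ℂ :=
  Complex.sin p.2 * (p.2 * Dhi s N k R m p)

/-- reduced coefficients -/
noncomputable def ei (s : ℂ) (N : ℕ) (k : ℤ) (R : ℂ → ℂ) (m : ℕ) (ξ : ℂ) : ℂ :=
  tc (Wi s N k R m) (m - 1) ξ / (m : ℂ)

theorem Wi_an (A : RootA) (hR : AnalyticAt ℂ R ξ) (h0 : R ξ ≠ 0) (m : ℕ) :
    AnalyticAt ℂ (Wi s N k R m) (ξ, 0) := by
  have h2 : AnalyticAt ℂ (fun p : ℂ × ℂ => p.2) (ξ, 0) := analyticAt_snd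
  exact (Complex.analyticAt_sin.comp h2).mul (h2.mul (Dhi_an A hR h0 m))

theorem ei_an (A : RootA) (hR : AnalyticAt ℂ R ξ) (h0 : R ξ ≠ 0) (m : ℕ) :
    AnalyticAt ℂ (ei s N k R m) ξ :=
  (analyticAt_tc (Wi_an A hR h0 m) (m - 1)).div_const

/-- the canonical coefficients in terms of the reduced ones -/
theorem Ik_eq (h : ξ₁ ≠ 0) (m : ℕ) (ψ : ℂ) :
    Ik (rhoI s N k R ψ₁ ξ₁) m ψ = rhoI s N k R ψ₁ ξ₁ ψ * ei s N k R m (xiI s N ψ₁ ξ₁ ψ) := by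
  have h1 : (fun δ : ℂ => Complex.sin δ * Dk (TT (rhoI s N k R ψ₁ ξ₁)) m (ψ, δ)) =
      fun δ => Wi s N k R m (xiI s N ψ₁ ξ₁ ψ, δ) := by
    funext δ
    rw [Dk_eq h]
    rfl
  have h2 : tc (fun p => Complex.sin p.2 * Dk (TT (rhoI s N k R ψ₁ ξ₁)) m p) (m - 1) ψ =
      tc (Wi s N k R m) (m - 1) (xiI s N ψ₁ ξ₁ ψ) := by
    simp only [tc]
    rw [h1]
  rw [Ik, h2, ei, mul_div_assoc]

theorem Sm_eq (h : ξ₁ ≠ 0) (p : ℂ × ℂ) :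
    Sm (Ik (rhoI s N k R ψ₁ ξ₁)) p =
      rhoI s N k R ψ₁ ξ₁ p.1 * Sm (ei s N k R) (QQ s N ψ₁ ξ₁ p) := by
  rw [Sm, Sm, ← tsum_mul_left]
  congr 1
  funext m
  rw [Ik_eq h]
  simp only [QQ]
  ring

/-! ## the local inverse of the coordinate -/

/-- inverse of `xiI` -/
noncomputable def YY (s : ℂ) (N : ℕ) (ψ₁ ξ₁ ξ : ℂ) : ℂ := ψ₁ - s * I * N * Complex.log (ξ / ξ₁)

theorem sI_mul (hs : s = 1 ∨ s = -1) : s * I * (s * I) = -1 := by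
  rcases hs with rfl | rfl
  · rw [one_mul, I_mul_I]
  · linear_combination I_mul_I

theorem xiI_YY (hs : s = 1 ∨ s = -1) (hN : 1 ≤ N) (h1 : ξ₁ ≠ 0) (h : ξ ≠ 0) :
    xiI s N ψ₁ ξ₁ (YY s N ψ₁ ξ₁ ξ) = ξ := by
  have hN0 : (N : ℂ) ≠ 0 := by exact_mod_cast (by omega : N ≠ 0)
  have e : s * I * (YY s N ψ₁ ξ₁ ξ - ψ₁) / N = Complex.log (ξ / ξ₁) := by
    rw [YY]
    field_simp
    linear_combination (-N * Complex.log (ξ / ξ₁)) * sI_mul hs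
  rw [xiI, e, Complex.exp_log (div_ne_zero h h1)]
  field_simp

theorem YY_self (h1 : ξ₁ ≠ 0) : YY s N ψ₁ ξ₁ ξ₁ = ψ₁ := by
  simp [YY, div_self h1]

theorem YY_cont (h1 : ξ₁ ≠ 0) : ContinuousAt (YY s N ψ₁ ξ₁) ξ₁ := by
  unfold YY
  refine continuousAt_const.sub (continuousAt_const.mul ?_)
  refine ContinuousAt.clog (continuousAt_id.div_const ξ₁) ?_
  simp [div_self h1]

end Vale.Agent.P097.Alg.Iso
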