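import Vale.Agent.P097.H791.Iso1

/-! # P097 / ALG-EI: the law near an isotropic end -/

set_option linter.all false

open Complex Metric Filter Topology Set

namespace Vale.Agent.P097.Alg

open Vale.Agent.P097.NZ

namespace Iso

variable {s : ℂ} {N : ℕ} {k : ℤ} {R : ℂ → ℂ} {ξ ξ₁ ψ₁ : ℂ} {ε : ℝ}

theorem anR (E : EndI s N k R ε) (h : ξ ∈ ball (0 : ℂ) ε) : AnalyticAt ℂ R ξ :=
  E.dR.analyticAt (isOpen_ball.mem_nhds h)

theorem conj (E : EndI s N k R ε) (h : ξ₁ ∈ ball (0 : ℂ) ε) (h0 : ξ₁ ≠ 0) :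
    ∃ ψ₁ : ℂ, Good (Ik (rhoI s N k R ψ₁ ξ₁)) (TT (rhoI s N k R ψ₁ ξ₁)) ψ₁ := by
  refine ⟨-s * I * Complex.log (ξ₁ ^ N), E.good ξ₁ h h0 _ ?_ _ (Filter.Eventually.of_forall
    fun ψ => rfl)⟩
  have e : s * I * (-s * I * Complex.log (ξ₁ ^ N)) = Complex.log (ξ₁ ^ N) := by
    linear_combination (-Complex.log (ξ₁ ^ N)) * sI_mul E.hs
  rw [e, Complex.exp_log (pow_ne_zero _ h0)]

theorem geo (A : RootA) (E : EndI s N k R ε) (h : ξ₁ ∈ ball (0 : ℂ) ε) (h0 : ξ₁ ≠ 0) :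
    GeoBd (ei s N k R) ξ₁ := by
  obtain ⟨ψ₁, G⟩ := conj E h h0
  obtain ⟨C₁, B, r, hB, hr, hb⟩ := G.bd
  set D : ℂ → ℂ := fun ξ => ξ ^ k * R ξ with hD
  have hDc : ContinuousAt D ξ₁ :=
    (continuousAt_zpow₀ ξ₁ k (Or.inl h0)).mul (anR E h).continuousAt
  have hD0 : D ξ₁ ≠ 0 := mul_ne_zero (zpow_ne_zero k h0) (E.R0 _ h)
  have hD0' : 0 < ‖D ξ₁‖ := norm_pos_iff.2 hD0
  have h1 : ∀ᶠ ξ in 𝓝 ξ₁, ‖D ξ₁‖ / 2 < ‖D ξ‖ :=
    hDc.norm.eventually_const_lt (by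
      show ‖D ξ₁‖ / 2 < ‖D ξ₁‖
      linarith)
  have h3 : ∀ᶠ ξ in 𝓝 ξ₁, YY s N ψ₁ ξ₁ ξ ∈ ball ψ₁ r := by
    have h4 : Tendsto (YY s N ψ₁ ξ₁) (𝓝 ξ₁) (𝓝 ψ₁) := by
      have := (YY_cont (s := s) (N := N) (ψ₁ := ψ₁) h0).tendsto
      rwa [YY_self h0] at this
    exact h4.eventually (ball_mem_nhds _ hr)
  have h5 : ∀ᶠ ξ in 𝓝 ξ₁, ξ ≠ 0 := isOpen_ne.mem_nhds h0
  obtain ⟨t, ht, h4⟩ := Metric.eventually_nhds_iff_ball.1 ((h1.and h3).and h5)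
  have hC1 : 0 ≤ C₁ := by
    have := (norm_nonneg _).trans (hb _ (mem_ball_self hr) 0)
    simpa using this
  refine ⟨C₁ / (‖D ξ₁‖ / 2), B, t, hB, ht, fun ξ hξ m => ?_⟩
  obtain ⟨⟨g1, g3⟩, g5⟩ := h4 ξ hξ
  have hDξ : D ξ ≠ 0 := norm_pos_iff.1 (lt_trans (by positivity) g1)
  have g6 : ei s N k R m ξ = Ik (rhoI s N k R ψ₁ ξ₁) m (YY s N ψ₁ ξ₁ ξ) / D ξ := by
    rw [Ik_eq h0, rhoI, xiI_YY E.hs E.hN h0 g5, eq_div_iff hDξ, mul_comm]
  rw [g6, norm_div]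
  calc ‖Ik (rhoI s N k R ψ₁ ξ₁) m (YY s N ψ₁ ξ₁ ξ)‖ / ‖D ξ‖
      ≤ C₁ * B ^ m / (‖D ξ₁‖ / 2) := by
        gcongr
        exact hb _ g3 m
    _ = C₁ / (‖D ξ₁‖ / 2) * B ^ m := by ring

/-- maximum principle -/
theorem geo0 (A : RootA) (E : EndI s N k R ε) :
    ∃ C B : ℝ, 0 < B ∧ 0 ≤ C ∧ ∀ ξ ∈ ball (0 : ℂ) (ε / 2), ∀ m, ‖ei s N k R m ξ‖ ≤ C * B ^ m := by
  have hε := E.hε
  obtain ⟨C, B, hB, hC, hb⟩ := geoBd_compact (u := ei s N k R) (isCompact_sphere (0 : ℂ) (ε / 2))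
    fun z hz => by
      rw [mem_sphere_zero_iff_norm] at hz
      refine geo A E (by rw [mem_ball_zero_iff, hz]; linarith) ?_
      rintro rfl
      rw [norm_zero] at hz
      linarith
  refine ⟨C, B, hB, hC, fun ξ hξ m => ?_⟩
  have hd : DifferentiableOn ℂ (ei s N k R m) (ball 0 ε) := fun z hz =>
    (ei_an A (anR E hz) (E.R0 _ hz) m).differentiableAt.differentiableWithinAt
  have hd2 : DiffContOnCl ℂ (ei s N k R m) (ball 0 (ε / 2)) :=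
    (hd.mono (closedBall_subset_ball (by linarith))).diffContOnCl_ball le_rfl
  refine Complex.norm_le_of_forall_mem_frontier_norm_le isBounded_ball hd2 (fun z hz => ?_)
    (subset_closure hξ)
  rw [frontier_ball _ (by positivity)] at hz
  exact hb z hz m

theorem ei_diff (A : RootA) (E : EndI s N k R ε) (m : ℕ) :
    DifferentiableOn ℂ (ei s N k R m) (ball 0 ε) := fun z hz =>
  (ei_an A (anR E hz) (E.R0 _ hz) m).differentiableAt.differentiableWithinAt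

/-- the reduced invariant function is analytic near the end -/
theorem Sm_diff (A : RootA) (E : EndI s N k R ε) :
    ∃ t : ℝ, 0 < t ∧ t ≤ ε / 2 ∧
      DifferentiableOn ℂ (Sm (ei s N k R)) (ball 0 t ×ˢ ball 0 t) := by
  have hε := E.hε
  obtain ⟨C, B, hB, hC, hb⟩ := geo0 A E
  have h1 := differentiableOn_Sm (u := ei s N k R) (z := 0) (r := ε / 2) hB (by positivity) hb
    fun m => (ei_diff A E m).mono (ball_subset_ball (by linarith))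
  refine ⟨min (ε / 2) (1 / (2 * B)), lt_min (by positivity) (by positivity), min_le_left _ _,
    h1.mono (prod_mono (ball_subset_ball (min_le_left _ _)) (ball_subset_ball (min_le_right _ _)))⟩

/-- the law away from the end -/
theorem law (A : RootA) (E : EndI s N k R ε) (h : ξ₁ ∈ ball (0 : ℂ) ε) (h0 : ξ₁ ≠ 0) :
    ∀ᶠ p in 𝓝 ((ξ₁, 0) : ℂ × ℂ),
      Complex.exp (s * I * (k / N) * (p.2 * ri s N k R p)) * R (Ti s N k R p).1 *
        Sm (ei s N k R) (Ti s N k R p) = R p.1 * Sm (ei s N k R) p := by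
  obtain ⟨ψ₁, G⟩ := conj E h h0
  have h4 : Tendsto (fun p : ℂ × ℂ => (YY s N ψ₁ ξ₁ p.1, p.2)) (𝓝 ((ξ₁, 0) : ℂ × ℂ))
      (𝓝 (ψ₁, 0)) := by
    have h5 : Tendsto (YY s N ψ₁ ξ₁) (𝓝 ξ₁) (𝓝 ψ₁) := by
      have := (YY_cont (s := s) (N := N) (ψ₁ := ψ₁) h0).tendsto
      rwa [YY_self h0] at this
    have h6 : Tendsto (fun p : ℂ × ℂ => YY s N ψ₁ ξ₁ p.1) (𝓝 ((ξ₁, 0) : ℂ × ℂ)) (𝓝 ψ₁) :=
      h5.comp (continuous_fst.tendsto ((ξ₁, 0) : ℂ × ℂ))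
    have h7 : Tendsto (fun p : ℂ × ℂ => p.2) (𝓝 ((ξ₁, 0) : ℂ × ℂ)) (𝓝 0) :=
      continuous_snd.tendsto ((ξ₁, 0) : ℂ × ℂ)
    exact h6.prodMk_nhds h7
  have h5 : ∀ᶠ p in 𝓝 ((ξ₁, 0) : ℂ × ℂ), p.1 ≠ 0 := continuous_fst.continuousAt.eventually_ne h0
  filter_upwards [h4.eventually G.inv, h5] with p g1 g2
  have e1 : QQ s N ψ₁ ξ₁ (YY s N ψ₁ ξ₁ p.1, p.2) = p := by
    refine Prod.ext ?_ rfl
    exact xiI_YY E.hs E.hN h0 g2
  rw [Sm_eq h0, Sm_eq h0, semi h0, e1] at g1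
  have e2 : rhoI s N k R ψ₁ ξ₁ (YY s N ψ₁ ξ₁ p.1) = p.1 ^ k * R p.1 := by
    rw [rhoI, xiI_YY E.hs E.hN h0 g2]
  have e3 : rhoI s N k R ψ₁ ξ₁ (TT (rhoI s N k R ψ₁ ξ₁) (YY s N ψ₁ ξ₁ p.1, p.2)).1 =
      p.1 ^ k * (Complex.exp (s * I * (k / N) * (p.2 * ri s N k R p)) * R (Ti s N k R p).1) := by
    rw [TT_eq, rt_eq h0, e1]
    simp only
    rw [rhoI, xiI_zpow, xiI_add, xiI_YY E.hs E.hN h0 g2, Ti_eq]
    ring
  simp only at g1
  rw [e2, e3] at g1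
  refine mul_left_cancel₀ (zpow_ne_zero k g2) ?_
  linear_combination g1

/-- the law at the end -/
theorem law0 (A : RootA) (E : EndI s N k R ε) :
    ∀ᶠ p in 𝓝 ((0, 0) : ℂ × ℂ),
      Complex.exp (s * I * (k / N) * (p.2 * ri s N k R p)) * R (Ti s N k R p).1 *
        Sm (ei s N k R) (Ti s N k R p) = R p.1 * Sm (ei s N k R) p := by
  have hε := E.hε
  obtain ⟨t, ht, htε, hd⟩ := Sm_diff A E
  have hJD : ∀ {F : ℂ × ℂ → ℂ} {x : ℂ}, AnalyticAt ℂ F (x, 0) →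
      ∃ δ > 0, TA.JD (fun a b => F (a, b)) (ball x δ ×ˢ ball 0 δ) := by
    intro F x hF
    obtain ⟨δ, hδ, h1⟩ := exists_polydisc hF.eventually_analyticAt
    refine ⟨δ, hδ, fun p hp => ?_⟩
    exact (h1 p.1 hp.1 p.2 hp.2).differentiableAt.differentiableWithinAt
  have hSm : ∀ x ∈ ball (0 : ℂ) t, AnalyticAt ℂ (Sm (ei s N k R)) (x, 0) := fun x hx =>
    Hol.analyticAt_of_differentiableOn (isOpen_ball.prod isOpen_ball) hd ⟨hx, mem_ball_self ht⟩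
  have hxε : ∀ x ∈ ball (0 : ℂ) t, x ∈ ball (0 : ℂ) ε := fun x hx =>
    ball_subset_ball (by linarith) hx
  have hL : ∀ x ∈ ball (0 : ℂ) t, AnalyticAt ℂ (fun p : ℂ × ℂ =>
      Complex.exp (s * I * (k / N) * (p.2 * ri s N k R p)) * R (Ti s N k R p).1 *
        Sm (ei s N k R) (Ti s N k R p)) (x, 0) := by
    intro x hx
    have a1 := anR E (hxε x hx)
    have a2 := E.R0 _ (hxε x hx)
    have a3 := Ti_an (s := s) (N := N) (k := k) A a1 a2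
    have a4 := ri_an (s := s) (N := N) (k := k) A a1 a2
    have a5 : AnalyticAt ℂ (fun p : ℂ × ℂ => p.2) (x, 0) := analyticAt_snd
    refine (((analyticAt_const.mul (a5.mul a4)).cexp).mul ?_).mul ?_
    · exact a1.comp_of_eq (fst_an a3) (by rw [Ti_axis])
    · exact (hSm x hx).comp_of_eq a3 (Ti_axis x)
  have hR' : ∀ x ∈ ball (0 : ℂ) t, AnalyticAt ℂ (fun p : ℂ × ℂ =>
      R p.1 * Sm (ei s N k R) p) (x, 0) := by
    intro x hx
    refine AnalyticAt.mul ?_ (hSm x hx)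
    have a1 : AnalyticAt ℂ (fun p : ℂ × ℂ => p.1) ((x, 0) : ℂ × ℂ) := analyticAt_fst
    exact (anR E (hxε x hx)).comp_of_eq a1 rfl
  have hs2 : ((t / 2 : ℝ) : ℂ) ∈ ball (0 : ℂ) t := by
    rw [mem_ball_zero_iff, norm_real, Real.norm_eq_abs, abs_of_pos (by positivity)]
    linarith
  have hs20 : ((t / 2 : ℝ) : ℂ) ≠ 0 := by
    exact_mod_cast (by positivity : (t / 2 : ℝ) ≠ 0)
  exact H367.PropD.germ_eq (convex_ball (0 : ℂ) t).isPreconnected (fun x hx => hJD (hL x hx))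
    (fun x hx => hJD (hR' x hx)) hs2 (law A E (hxε _ hs2) hs20) 0 (mem_ball_self ht)

/-- even coefficients vanish -/
theorem even (A : RootA) (E : EndI s N k R ε) {m : ℕ} (hm : Even m) (hξ : ξ ∈ ball (0 : ℂ) ε) :
    ei s N k R m ξ = 0 := by
  have hε := E.hε
  set x : ℂ := ((ε / 2 : ℝ) : ℂ) with hx
  have hx1 : x ∈ ball (0 : ℂ) ε := by
    rw [mem_ball_zero_iff, norm_real, Real.norm_eq_abs, abs_of_pos (by positivity)]
    linarith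
  have hx0 : x ≠ 0 := by
    rw [hx]
    exact_mod_cast (by positivity : (ε / 2 : ℝ) ≠ 0)
  obtain ⟨ψ₁, G⟩ := conj E hx1 hx0
  have h4 : Tendsto (YY s N ψ₁ x) (𝓝 x) (𝓝 ψ₁) := by
    have := (YY_cont (s := s) (N := N) (ψ₁ := ψ₁) hx0).tendsto
    rwa [YY_self hx0] at this
  have h2 : ei s N k R m =ᶠ[𝓝 x] 0 := by
    filter_upwards [h4.eventually G.odd, (anR E hx1).continuousAt.eventually_ne (E.R0 x hx1),
      isOpen_ne.mem_nhds hx0] with ξ g1 g3 g4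
    have g5 := g1 m hm
    rw [Ik_eq hx0, rhoI, xiI_YY E.hs E.hN hx0 g4] at g5
    exact (mul_eq_zero.1 g5).resolve_left (mul_ne_zero (zpow_ne_zero k g4) g3)
  have h3 : AnalyticOnNhd ℂ (ei s N k R m) (ball 0 ε) := fun z hz =>
    ei_an A (anR E hz) (E.R0 _ hz) m
  exact h3.eqOn_zero_of_preconnected_of_eventuallyEq_zero
    (convex_ball (0 : ℂ) ε).isPreconnected hx1 h2 hξ

theorem ei_one : ei s N k R 1 ξ = 0 := by
  simp [ei, tc, Wi]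

theorem Dhi_three (A : RootA) (hR : AnalyticAt ℂ R ξ) (h0 : R ξ ≠ 0) :
    Dhi s N k R 3 (ξ, 0) = 2 := by
  rw [Dhi]
  have : (fun j : ℕ => gg s N k R j (ξ, 0)) = fun j : ℕ => 2 * (j : ℂ) := by
    funext j
    exact gg_axis A hR h0 j
  rw [this, NF_three]

theorem ei_three (A : RootA) (hR : AnalyticAt ℂ R ξ) (h0 : R ξ ≠ 0) :
    ei s N k R 3 ξ = 2 / 3 := by
  set D : ℂ → ℂ := fun y => Dhi s N k R 3 (ξ, y) with hD
  have hDan : AnalyticAt ℂ D 0 := analyticAt_pair2 (Dhi_an A hR h0 3)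
  have hD0 : D 0 = 2 := Dhi_three A hR h0
  set F : ℂ → ℂ := fun δ => Complex.sin δ * D δ with hF
  have hFan : AnalyticAt ℂ F 0 := Complex.analyticAt_sin.mul hDan
  have hF' : deriv F 0 = 2 := by
    have h1 := (Complex.hasDerivAt_sin 0).mul hDan.differentiableAt.hasDerivAt
    have h2 : HasDerivAt F (Complex.cos 0 * D 0 + Complex.sin 0 * deriv D 0) 0 := h1
    rw [h2.deriv, hD0]
    simp
  have h1 : (fun δ : ℂ => Wi s N k R 3 (ξ, δ)) = fun δ => δ * F δ := by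
    funext δ
    simp only [Wi, hF, hD]
    ring
  have h2 : deriv (fun δ => δ * F δ) =ᶠ[𝓝 0] fun δ => F δ + δ * deriv F δ := by
    filter_upwards [hFan.eventually_analyticAt] with δ hδ
    have := (hasDerivAt_id δ).mul hδ.differentiableAt.hasDerivAt
    have h3 := this.deriv
    simp only [id, one_mul] at h3
    exact h3
  have h3 : HasDerivAt (fun δ => F δ + δ * deriv F δ)
      (deriv F 0 + (1 * deriv F 0 + 0 * deriv (deriv F) 0)) 0 :=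
    hFan.differentiableAt.hasDerivAt.add
      ((hasDerivAt_id (0 : ℂ)).mul hFan.deriv.differentiableAt.hasDerivAt)
  have h4 : iteratedDeriv 2 (fun δ : ℂ => Wi s N k R 3 (ξ, δ)) 0 = 4 := by
    rw [h1, iteratedDeriv_succ, iteratedDeriv_one, h2.deriv_eq, h3.deriv, hF']
    norm_num
  rw [ei, tc, h4]
  norm_num [Nat.factorial]

end Iso

/-- ALG-EI -/
theorem lawI0 (A : RootA) : LawI0 := by
  intro s N k R ε E
  have hε := E.hε
  obtain ⟨C, B, hB, hC, hb⟩ := Iso.geo0 A E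
  have hev : ∀ᶠ ξ in 𝓝 (0 : ℂ), ξ ∈ ball (0 : ℂ) (ε / 2) := ball_mem_nhds _ (by positivity)
  have hsub : ∀ ξ ∈ ball (0 : ℂ) (ε / 2), ξ ∈ ball (0 : ℂ) ε := fun ξ h =>
    ball_subset_ball (by linarith) h
  refine ⟨Sm (Iso.ei s N k R), ?_, ?_, ?_, Iso.law0 A E⟩
  · obtain ⟨t, ht, htε, hd⟩ := Iso.Sm_diff A E
    exact Hol.analyticAt_of_differentiableOn (isOpen_ball.prod isOpen_ball) hd
      ⟨mem_ball_self ht, mem_ball_self ht⟩
  · have h1 : ∀ᶠ p in 𝓝 ((0, 0) : ℂ × ℂ), p.1 ∈ ball (0 : ℂ) (ε / 2) :=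
      (continuous_fst.tendsto ((0, 0) : ℂ × ℂ)).eventually hev
    filter_upwards [h1] with p hp
    simp only [Sm]
    rw [← tsum_neg]
    congr 1
    funext m
    rcases Nat.even_or_odd m with hm | hm
    · rw [Iso.even A E hm (hsub _ hp)]; simp
    · rw [hm.neg_pow]; ring
  · filter_upwards [hev] with ξ hξ
    have h1 := tc_Sm (u := Iso.ei s N k R) (z' := ξ) hB (hb ξ hξ)
    have h2 := h1 1
    have h3 := h1 3
    rw [Iso.ei_one, tc] at h2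
    rw [Iso.ei_three A (Iso.anR E (hsub ξ hξ)) (E.R0 _ (hsub ξ hξ)), tc] at h3
    constructor
    · simpa using h2
    · have h4 : ((3).factorial : ℂ) = 6 := by norm_num [Nat.factorial]
      rw [h4] at h3
      linear_combination 6 * h3

end Vale.Agent.P097.Alg
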