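import Mathlib

/-! # P097 / W3: linear independence of square roots over the constants of a derivation

`F` a field of characteristic `0`, `V` a derivation of `F`, `x` with `V x ≠ 0`.  If `y i ^ 2` is a
squarefree polynomial in `x` with constant coefficients and these polynomials are pairwise not
associated, then the `y i` are linearly independent over `(ker V)(x)`. -/

set_option linter.all false

open Polynomial IntermediateField

namespace Vale.Agent.P097.H791.Kum

variable {F : Type*} [Field F] (V : Derivation ℤ F F)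

/-- the field of constants -/
def cst : Subfield F where
  carrier := {a | V a = 0}
  mul_mem' := by
    intro a b ha hb
    simp only [Set.mem_setOf_eq] at *
    rw [V.leibniz, ha, hb]
    simp
  one_mem' := V.map_one_eq_zero
  add_mem' := by
    intro a b ha hb
    simp only [Set.mem_setOf_eq] at *
    rw [map_add, ha, hb, add_zero]
  zero_mem' := map_zero V
  neg_mem' := by
    intro a ha
    simp only [Set.mem_setOf_eq] at *
    rw [map_neg, ha, neg_zero]
  inv_mem' := by
    intro a ha
    simp only [Set.mem_setOf_eq] at *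
    rw [V.leibniz_inv, ha]
    simp

theorem mem_cst {a : F} : a ∈ cst V ↔ V a = 0 := Iff.rfl

/-- `V` as a derivation over its constants -/
def VC : Derivation (cst V) F F :=
  Derivation.mk' { toFun := V
                   map_add' := V.map_add
                   map_smul' := by
                    intro c a
                    have h : V (c : F) = 0 := c.2
                    rw [Subfield.smul_def, smul_eq_mul, V.leibniz, h]
                    simp [Subfield.smul_def] } (fun a b => V.leibniz a b)

theorem VC_apply (a : F) : VC V a = V a := rfl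

theorem V_aeval (x : F) (P : (cst V)[X]) : V (aeval x P) = aeval x (derivative P) * V x := by
  have := (VC V).map_aeval P x
  rw [VC_apply, VC_apply] at this
  rw [this, smul_eq_mul]

variable {V} {x : F}

/-- a non constant is transcendental over the constants -/
theorem aeval_ne [CharZero F] (hx : V x ≠ 0) : ∀ P : (cst V)[X], P ≠ 0 → aeval x P ≠ 0 := by
  intro P
  induction hn : P.natDegree using Nat.strong_induction_on generalizing P with
  | _ n ih =>
    intro hP h0
    rcases Nat.eq_zero_or_pos P.natDegree with h1 | h1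
    · rw [natDegree_eq_zero] at h1
      obtain ⟨c, rfl⟩ := h1
      rw [aeval_C] at h0
      have : c = 0 := by
        have h2 : ((c : cst V) : F) = 0 := h0
        exact_mod_cast h2
      exact hP (by rw [this, C_0])
    · have h2 := V_aeval V x P
      rw [h0, map_zero] at h2
      have h3 : aeval x (derivative P) = 0 := (mul_eq_zero.1 h2.symm).resolve_right hx
      have : CharZero (cst V) := by
        refine ⟨fun a b hab => ?_⟩
        have := congrArg (Subtype.val) hab
        simpa using this
      have h4 : derivative P ≠ 0 := by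
        intro h5
        have := natDegree_eq_zero_of_derivative_eq_zero h5
        omega
      refine ih _ ?_ (derivative P) rfl h4 h3
      rw [← hn]
      exact natDegree_derivative_lt h1.ne'

/-- exponentials over a differential field are linearly independent (Artin) -/
theorem linInd_of_log (K : Subfield F) (D : Derivation ℤ F F) (hD : ∀ a ∈ K, D a ∈ K)
    (hC : ∀ a, D a = 0 → a ∈ K) {ι : Type*} (y u : ι → F) (hy : ∀ i, y i ≠ 0)
    (hu : ∀ i, u i ∈ K) (hyu : ∀ i, D (y i) = u i * y i) (hne : ∀ i j, i ≠ j → y i / y j ∉ K) :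
    LinearIndependent K y := by
  classical
  rw [linearIndependent_iff']
  intro s
  induction s using Finset.strongInduction with
  | _ s ih =>
    intro g hg i hi
    by_contra hgi
    -- derivative of the relation minus `u i` times the relation
    have h1 : ∑ j ∈ s, (g j : F) * y j = 0 := by
      simpa [Subfield.smul_def] using hg
    have h2 : ∑ j ∈ s, (D (g j : F) + (g j : F) * u j) * y j = 0 := by
      have h3 := congrArg D h1
      rw [map_zero, map_sum] at h3
      rw [← h3]
      refine Finset.sum_congr rfl fun j _ => ?_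
      rw [D.leibniz, hyu j]
      simp only [smul_eq_mul]
      ring
    have hgi' : (g i : F) ≠ 0 := by
      intro h
      exact hgi (by exact_mod_cast h)
    -- the reduced relation
    set t : F := (D (g i : F) + (g i : F) * u i) / (g i : F) with ht
    have htK : t ∈ K := K.div_mem (K.add_mem (hD _ (g i).2) (K.mul_mem (g i).2 (hu i))) (g i).2
    set g' : ι → K := fun j => ⟨D (g j : F) + (g j : F) * u j - t * (g j : F),
      K.sub_mem (K.add_mem (hD _ (g j).2) (K.mul_mem (g j).2 (hu j))) (K.mul_mem htK (g j).2)⟩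
      with hg'
    have h4 : ∑ j ∈ s, (g' j : F) * y j = 0 := by
      have e : ∑ j ∈ s, (g' j : F) * y j =
          ∑ j ∈ s, (D (g j : F) + (g j : F) * u j) * y j - t * ∑ j ∈ s, (g j : F) * y j := by
        rw [Finset.mul_sum, ← Finset.sum_sub_distrib]
        refine Finset.sum_congr rfl fun j _ => ?_
        simp only [hg']
        ring
      rw [e, h2, h1, mul_zero, sub_zero]
    have h5 : (g' i : F) = 0 := by
      simp only [hg', ht]
      field_simp
      ring
    have h6 : ∑ j ∈ s.erase i, (g' j : F) * y j = 0 := by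
      rw [← Finset.add_sum_erase s _ hi, h5, zero_mul, zero_add] at h4
      exact h4
    have h7 : ∀ j ∈ s.erase i, g' j = 0 := by
      refine ih _ (Finset.erase_ssubset hi) g' ?_
      simpa [Subfield.smul_def] using h6
    -- all the other coefficients vanish
    have h8 : ∀ j ∈ s.erase i, g j = 0 := by
      intro j hj
      by_contra hgj
      have hgj' : (g j : F) ≠ 0 := by
        intro h
        exact hgj (by exact_mod_cast h)
      have h9 : D (g j : F) + (g j : F) * u j - t * (g j : F) = 0 := by
        have := congrArg (Subtype.val) (h7 j hj)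
        simpa [hg'] using this
      -- g j y j / (g i y i) is constant
      have h10 : D ((g j : F) * y j / ((g i : F) * y i)) = 0 := by
        have e1 : D ((g j : F) * y j) = t * ((g j : F) * y j) := by
          rw [D.leibniz, hyu j]
          simp only [smul_eq_mul]
          linear_combination y j * h9
        have e2 : D ((g i : F) * y i) = t * ((g i : F) * y i) := by
          rw [D.leibniz, hyu i, ht]
          simp only [smul_eq_mul]
          field_simp
          ring
        rw [D.leibniz_div, e1, e2]
        simp only [smul_eq_mul]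
        ring
      have h11 := hC _ h10
      refine hne j i (Finset.ne_of_mem_erase hj) ?_
      have h12 : y j / y i = ((g j : F) * y j / ((g i : F) * y i)) * (g i : F) / (g j : F) := by
        have := hy i
        field_simp
      rw [h12]
      exact K.div_mem (K.mul_mem h11 (g i).2) (g j).2
    have h13 : (g i : F) * y i = 0 := by
      rw [← Finset.add_sum_erase s _ hi] at h1
      rwa [Finset.sum_eq_zero, add_zero] at h1
      intro j hj
      rw [h8 j hj]
      simp
    exact (mul_ne_zero hgi' (hy i)) h13

theorem mem_adj {a : F} : a ∈ (cst V)⟮x⟯ ↔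
    ∃ r s : (cst V)[X], a = aeval x r / aeval x s :=
  mem_adjoin_simple_iff (cst V) a

theorem exists_coprime {k : Type*} [Field k] {r s : k[X]} (hs0 : s ≠ 0) :
    ∃ P Q g : k[X], IsCoprime P Q ∧ r = g * P ∧ s = g * Q := by
  obtain ⟨g, hg⟩ := (IsPrincipalIdealRing.principal (Ideal.span ({r, s} : Set k[X]))).principal
  have h1 : r ∈ Ideal.span ({g} : Set k[X]) := by
    have : r ∈ Ideal.span ({r, s} : Set k[X]) := Ideal.subset_span (by simp)
    rw [hg] at this
    exact this
  have h2 : s ∈ Ideal.span ({g} : Set k[X]) := by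
    have : s ∈ Ideal.span ({r, s} : Set k[X]) := Ideal.subset_span (by simp)
    rw [hg] at this
    exact this
  have h3 : g ∈ Ideal.span ({r, s} : Set k[X]) := by
    rw [hg]
    exact Submodule.mem_span_singleton_self g
  rw [Ideal.mem_span_singleton'] at h1 h2
  rw [Ideal.mem_span_pair] at h3
  obtain ⟨P, hP⟩ := h1
  obtain ⟨Q, hQ⟩ := h2
  obtain ⟨a, b, hab⟩ := h3
  have hg0 : g ≠ 0 := by
    rintro rfl
    exact hs0 (by rw [← hQ, mul_zero])
  refine ⟨P, Q, g, ⟨a, b, ?_⟩, by rw [← hP, mul_comm], by rw [← hQ, mul_comm]⟩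
  refine mul_right_cancel₀ hg0 ?_
  rw [one_mul]
  calc (a * P + b * Q) * g = a * (P * g) + b * (Q * g) := by ring
    _ = g := by rw [hP, hQ, hab]

/-- squarefree polynomials which differ by a square -/
theorem assoc_of_sq {k : Type*} [Field k] {p q r s : k[X]} (hp : Squarefree p) (hq : Squarefree q)
    (hs0 : s ≠ 0) (e1 : s ^ 2 * p = r ^ 2 * q) : Associated p q := by
  obtain ⟨P, Q, g, hcop, hPr, hQs⟩ := exists_coprime (r := r) hs0
  have hg0 : g ≠ 0 := by
    rintro rfl
    exact hs0 (by rw [hQs, zero_mul])
  have e2 : Q ^ 2 * p = P ^ 2 * q := by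
    rw [hPr, hQs] at e1
    have h3 : g ^ 2 * (Q ^ 2 * p) = g ^ 2 * (P ^ 2 * q) := by
      linear_combination e1
    exact mul_left_cancel₀ (pow_ne_zero 2 hg0) h3
  have hP : IsUnit P := by
    refine hp P ?_
    have h4 : P * P ∣ Q ^ 2 * p := ⟨q, by rw [e2]; ring⟩
    have h5 : IsCoprime (P * P) (Q ^ 2) := by
      have := hcop.pow (m := 2) (n := 2)
      rwa [sq P] at this
    exact h5.dvd_of_dvd_mul_left h4
  have hQ : IsUnit Q := by
    refine hq Q ?_
    have h4 : Q * Q ∣ P ^ 2 * q := ⟨p, by rw [← e2]; ring⟩
    have h5 : IsCoprime (Q * Q) (P ^ 2) := by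
      have := hcop.symm.pow (m := 2) (n := 2)
      rwa [sq Q] at this
    exact h5.dvd_of_dvd_mul_left h4
  have h6 : Associated (Q ^ 2 * p) p := associated_unit_mul_left p (Q ^ 2) (hQ.pow 2)
  have h7 : Associated (P ^ 2 * q) q := associated_unit_mul_left q (P ^ 2) (hP.pow 2)
  rw [e2] at h6
  exact h6.symm.trans h7

/-- linear independence of square roots -/
theorem linInd_sqrt [CharZero F] (hx : V x ≠ 0) {ι : Type*} (q : ι → (cst V)[X])
    (hq : ∀ i, Squarefree (q i)) (hn : ∀ i j, i ≠ j → ¬ Associated (q i) (q j)) (y : ι → F)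
    (hy : ∀ i, y i ^ 2 = aeval x (q i)) : LinearIndependent (cst V)⟮x⟯ y := by
  have hq0 : ∀ i, q i ≠ 0 := fun i => (hq i).ne_zero
  have hy0 : ∀ i, y i ≠ 0 := by
    intro i h
    have := hy i
    rw [h] at this
    exact aeval_ne hx (q i) (hq0 i) (by rw [← this]; ring)
  have hstab : ∀ a ∈ (cst V)⟮x⟯, V a / V x ∈ (cst V)⟮x⟯ := by
    intro a ha
    rw [mem_adj] at ha
    obtain ⟨r, s, rfl⟩ := ha
    have hm : ∀ p : (cst V)[X], aeval x p ∈ (cst V)⟮x⟯ := fun p =>
      mem_adj.2 ⟨p, 1, by simp⟩
    have e : V (aeval x r / aeval x s) / V x = (aeval x s * aeval x (derivative r) -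
        aeval x r * aeval x (derivative s)) / (aeval x s * aeval x s) := by
      rw [V.leibniz_div, V_aeval, V_aeval]
      simp only [smul_eq_mul]
      by_cases hs : aeval x s = 0
      · simp [hs]
      · field_simp
    rw [e]
    exact div_mem (sub_mem (mul_mem (hm _) (hm _)) (mul_mem (hm _) (hm _))) (mul_mem (hm _) (hm _))
  set D : Derivation ℤ F F := (V x)⁻¹ • V with hD
  have hDa : ∀ a, D a = V a / V x := by
    intro a
    rw [hD, Derivation.smul_apply, smul_eq_mul]
    ring
  have key : LinearIndependent (cst V)⟮x⟯.toSubfield y := by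
    refine linInd_of_log (cst V)⟮x⟯.toSubfield D ?_ ?_ y
      (fun i => D (aeval x (q i)) / (2 * aeval x (q i))) hy0 ?_ ?_ ?_
    · intro a ha
      rw [hDa]
      exact hstab a ha
    · intro a ha
      rw [hDa, div_eq_zero_iff] at ha
      have : V a = 0 := ha.resolve_right hx
      exact (cst V)⟮x⟯.algebraMap_mem ⟨a, this⟩
    · intro i
      have hm : ∀ p : (cst V)[X], aeval x p ∈ (cst V)⟮x⟯ := fun p =>
        mem_adj.2 ⟨p, 1, by simp⟩
      have h2 : (2 : F) ∈ (cst V)⟮x⟯ := by
        have := (cst V)⟮x⟯.natCast_mem 2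
        exact_mod_cast this
      show D (aeval x (q i)) / (2 * aeval x (q i)) ∈ (cst V)⟮x⟯
      rw [hDa]
      exact div_mem (hstab _ (hm _)) (mul_mem h2 (hm _))
    · intro i
      have h1 : D (y i ^ 2) = 2 * y i * D (y i) := by
        rw [sq, D.leibniz]
        simp only [smul_eq_mul]
        ring
      rw [← hy i, h1]
      have := hy0 i
      field_simp
    · intro i j hij hmem
      have hmem' : y i / y j ∈ (cst V)⟮x⟯ := hmem
      rw [mem_adj] at hmem'
      obtain ⟨r, s, hrs⟩ := hmem'
      have hne : y i / y j ≠ 0 := div_ne_zero (hy0 i) (hy0 j)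
      have hs : aeval x s ≠ 0 := by
        intro h
        rw [h, div_zero] at hrs
        exact hne hrs
      have hs0 : s ≠ 0 := by
        rintro rfl
        exact hs (by simp)
      have hr0 : r ≠ 0 := by
        rintro rfl
        rw [map_zero, zero_div] at hrs
        exact hne hrs
      -- the polynomial identity
      have e1 : s ^ 2 * q i = r ^ 2 * q j := by
        by_contra hcon
        refine aeval_ne hx (s ^ 2 * q i - r ^ 2 * q j) (sub_ne_zero.2 hcon) ?_
        simp only [map_sub, map_mul, map_pow]
        rw [← hy i, ← hy j]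
        have h2 : y i * aeval x s = y j * aeval x r := by
          have := hy0 j
          field_simp at hrs
          linear_combination hrs
        linear_combination (y i * aeval x s + y j * aeval x r) * h2
      exact hn i j hij (assoc_of_sq (hq i) (hq j) hs0 e1)
  exact key

/-! ## the application: `y ^ 2 = 1 - (a x + g) ^ 2` -/

/-- `1 - (a X + g) ^ 2` -/
noncomputable def qd {k : Type*} [Field k] (a g : k) : k[X] := 1 - (C a * X + C g) ^ 2

theorem qd_squarefree {k : Type*} [Field k] [CharZero k] {a g : k} (ha : a ≠ 0) :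
    Squarefree (qd a g) := by
  refine Separable.squarefree ?_
  refine ⟨1, -(C (1 / (2 * a)) * (C a * X + C g)), ?_⟩
  have h1 : derivative (qd a g) = -(2 * C a * (C a * X + C g)) := by
    simp [qd, sq]
    ring
  have h2 : C (1 / (2 * a)) * (2 * C a) = (1 : k[X]) := by
    rw [show (2 : k[X]) = C 2 from (map_ofNat C 2).symm, ← C_mul, ← C_mul, ← C_1]
    congr 1
    field_simp
  rw [h1, qd]
  linear_combination (C a * X + C g) ^ 2 * h2

theorem qd_assoc {k : Type*} [Field k] [CharZero k] {a g a' g' : k} (ha : a ≠ 0)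
    (h : Associated (qd a g) (qd a' g')) : (a' = a ∧ g' = g) ∨ (a' = -a ∧ g' = -g) := by
  obtain ⟨u, hu⟩ := h
  obtain ⟨c, hc, hcu⟩ := Polynomial.isUnit_iff.1 u.isUnit
  have e : ∀ t : k, (1 - (a * t + g) ^ 2) * c = 1 - (a' * t + g') ^ 2 := by
    intro t
    have := congrArg (eval t) hu
    rw [← hcu] at this
    simpa [qd] using this
  have hc0 : c ≠ 0 := hc.ne_zero
  have e0 := e 0
  have e1 := e 1
  have e2 := e (-1)
  have f1 : a ^ 2 * c = a' ^ 2 := by
    linear_combination (-1 / 2 : k) * e1 + (-1 / 2 : k) * e2 + e0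
  have f2 : a * g * c = a' * g' := by
    linear_combination (-1 / 4 : k) * e1 + (1 / 4 : k) * e2
  have f3 : (1 - g ^ 2) * c = 1 - g' ^ 2 := by
    linear_combination e0
  have ha' : a' ≠ 0 := by
    intro h
    rw [h] at f1
    have : a ^ 2 * c = 0 := by rw [f1]; ring
    exact (mul_ne_zero (pow_ne_zero 2 ha) hc0) this
  have f4 : a' * g = a * g' := by
    have h1 : a * a' * (a' * g - a * g') = 0 := by
      linear_combination (-g * a) * f1 + a ^ 2 * f2
    have := (mul_eq_zero.1 h1).resolve_left (mul_ne_zero ha ha')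
    linear_combination this
  have f5 : c = 1 := by
    have h1 : a ^ 2 * (c - 1) = 0 := by
      have h2 : g ^ 2 * a' ^ 2 = a ^ 2 * g' ^ 2 := by
        have := congrArg (fun z => z ^ 2) f4
        simp only [mul_pow] at this
        linear_combination this
      linear_combination a ^ 2 * f3 + g ^ 2 * f1 + h2
    have := (mul_eq_zero.1 h1).resolve_left (pow_ne_zero 2 ha)
    linear_combination this
  rw [f5, mul_one] at f1
  have h1 : (a' - a) * (a' + a) = 0 := by linear_combination -f1
  rcases mul_eq_zero.1 h1 with h2 | h2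
  · left
    have h3 : a' = a := by linear_combination h2
    refine ⟨h3, ?_⟩
    rw [h3] at f4
    exact (mul_left_cancel₀ ha f4).symm
  · right
    have h3 : a' = -a := by linear_combination h2
    refine ⟨h3, ?_⟩
    rw [h3] at f4
    have : a * (g' + g) = 0 := by linear_combination -f4
    have := (mul_eq_zero.1 this).resolve_left ha
    linear_combination this

theorem qd_not_unit {k : Type*} [Field k] [CharZero k] {a g : k} (ha : a ≠ 0) :
    ¬ Associated (qd a g) 1 := by
  rintro ⟨u, hu⟩
  obtain ⟨c, hc, hcu⟩ := Polynomial.isUnit_iff.1 u.isUnit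
  have e : ∀ t : k, (1 - (a * t + g) ^ 2) * c = 1 := by
    intro t
    have := congrArg (eval t) hu
    rw [← hcu] at this
    simpa [qd] using this
  have e0 := e ((1 - g) / a)
  have : (1 - (a * ((1 - g) / a) + g) ^ 2) = 0 := by field_simp; ring
  rw [this, zero_mul] at e0
  exact zero_ne_one e0

theorem cst_charZero [CharZero F] : CharZero (cst V) := by
  refine ⟨fun a b hab => ?_⟩
  have := congrArg (Subtype.val) hab
  simpa using this

/-- W3: the numbers `sqrt (1 - (a x + g) ^ 2)` and `1` are linearly independent over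
`(ker V)(x)` -/
theorem kummer [CharZero F] (hx : V x ≠ 0) {ι : Type*} (a g y : ι → F) (ha0 : ∀ i, a i ≠ 0)
    (ha : ∀ i, V (a i) = 0) (hg : ∀ i, V (g i) = 0)
    (hn : ∀ i j, i ≠ j → ¬ (a j = a i ∧ g j = g i) ∧ ¬ (a j = -a i ∧ g j = -g i))
    (hy : ∀ i, y i ^ 2 = 1 - (a i * x + g i) ^ 2) :
    LinearIndependent (cst V)⟮x⟯ (fun o : Option ι => o.elim 1 y) := by
  have := cst_charZero (V := V)
  set a' : ι → cst V := fun i => ⟨a i, ha i⟩ with ha'
  set g' : ι → cst V := fun i => ⟨g i, hg i⟩ with hg'
  have ha0' : ∀ i, a' i ≠ 0 := by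
    intro i h
    exact ha0 i (by simpa [ha'] using congrArg Subtype.val h)
  refine linInd_sqrt hx (fun o : Option ι => o.elim 1 (fun i => qd (a' i) (g' i))) ?_ ?_ _ ?_
  · rintro (_ | i)
    · exact squarefree_one
    · exact qd_squarefree (ha0' i)
  · rintro (_ | i) (_ | j) hij h
    · exact hij rfl
    · exact qd_not_unit (ha0' j) h.symm
    · exact qd_not_unit (ha0' i) h
    · have hij' : i ≠ j := fun h => hij (by rw [h])
      rcases qd_assoc (ha0' i) h with ⟨h1, h2⟩ | ⟨h1, h2⟩
      · refine (hn i j hij').1 ⟨?_, ?_⟩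
        · simpa [ha'] using congrArg Subtype.val h1
        · simpa [hg'] using congrArg Subtype.val h2
      · refine (hn i j hij').2 ⟨?_, ?_⟩
        · simpa [ha'] using congrArg Subtype.val h1
        · simpa [hg'] using congrArg Subtype.val h2
  · rintro (_ | i)
    · show (1 : F) ^ 2 = aeval x (1 : (cst V)[X])
      rw [map_one, one_pow]
    · show y i ^ 2 = aeval x (qd (a' i) (g' i))
      rw [hy i]
      simp only [qd, map_sub, map_one, map_pow, map_add, map_mul, aeval_C, aeval_X]
      rfl

/-- the same over the constants, in elementary form -/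
theorem kummer_cst [CharZero F] (hx : V x ≠ 0) {ι : Type*} (s : Finset ι) (a g y c : ι → F) (c₀ : F)
    (ha0 : ∀ i ∈ s, a i ≠ 0) (ha : ∀ i ∈ s, V (a i) = 0) (hg : ∀ i ∈ s, V (g i) = 0)
    (hn : ∀ i ∈ s, ∀ j ∈ s, i ≠ j → ¬ (a j = a i ∧ g j = g i) ∧ ¬ (a j = -a i ∧ g j = -g i))
    (hy : ∀ i ∈ s, y i ^ 2 = 1 - (a i * x + g i) ^ 2) (hc₀ : V c₀ = 0)
    (hc : ∀ i ∈ s, V (c i) = 0) (h : c₀ + ∑ i ∈ s, c i * y i = 0) :
    c₀ = 0 ∧ ∀ i ∈ s, c i = 0 := by
  classical
  have h1 := kummer hx (ι := s) (fun i => a i) (fun i => g i) (fun i => y i)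
    (fun i => ha0 i i.2) (fun i => ha i i.2) (fun i => hg i i.2)
    (fun i j hij => hn i i.2 j j.2 (fun h => hij (Subtype.ext h))) (fun i => hy i i.2)
  rw [Fintype.linearIndependent_iff] at h1
  have hmem : ∀ z : F, V z = 0 → z ∈ (cst V)⟮x⟯ := fun z hz =>
    (cst V)⟮x⟯.algebraMap_mem ⟨z, hz⟩
  have h2 := h1 (fun o => o.elim ⟨c₀, hmem c₀ hc₀⟩ (fun i => ⟨c i, hmem _ (hc i i.2)⟩)) (by
    rw [Fintype.sum_option]
    have e : ∑ i : s, c i * y i = ∑ i ∈ s, c i * y i := Finset.sum_coe_sort s (fun i => c i * y i)
    calc _ = c₀ * 1 + ∑ i : s, c i * y i := rfl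
      _ = 0 := by rw [mul_one, e, h])
  constructor
  · have := congrArg Subtype.val (h2 none)
    simpa using this
  · intro i hi
    have := congrArg Subtype.val (h2 (some ⟨i, hi⟩))
    simpa using this

end Vale.Agent.P097.H791.Kum
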