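import Vale.Agent.P097.H791.Kummer

/-! # P097 / W3: Kummer lemma in the form used by the finite type theorem (helper367) -/

set_option linter.all false

open Polynomial IntermediateField

namespace Vale.Agent.P097.H791.Kum

/-- `(r X + g) ^ 2 - T` -/
noncomputable def qr {k : Type*} [Field k] (r g T : k) : k[X] := (C r * X + C g) ^ 2 - C T

theorem qr_squarefree {k : Type*} [Field k] [CharZero k] {r g T : k} (hr : r ≠ 0) (hT : T ≠ 0) :
    Squarefree (qr r g T) := by
  refine Separable.squarefree ?_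
  refine ⟨-C (1 / T), C (1 / (2 * r * T)) * (C r * X + C g), ?_⟩
  have h1 : derivative (qr r g T) = 2 * C r * (C r * X + C g) := by
    simp [qr, sq]
    ring
  have h2 : C (1 / (2 * r * T)) * (2 * C r) = (C (1 / T) : k[X]) := by
    rw [show (2 : k[X]) = C 2 from (map_ofNat C 2).symm, ← C_mul, ← C_mul]
    congr 1
    field_simp
  have h3 : C (1 / T) * C T = (1 : k[X]) := by
    rw [← C_mul, ← C_1]
    congr 1
    field_simp
  rw [h1, qr]
  linear_combination (C r * X + C g) ^ 2 * h2 + h3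

/-- **Kummer lemma**: square roots of quadratic polynomials over the constants of a derivation,
pairwise with nonconstant quotients, are linearly independent over the constants. -/
theorem kummer' {F ι : Type*} [Field F] [CharZero F] (V : Derivation ℤ F F) (u : F) (hu : V u ≠ 0)
    (t : Finset ι) (v r g T : ι → F)
    (h : ∀ i ∈ t, v i ^ 2 = (r i * u + g i) ^ 2 - T i ∧ V (r i) = 0 ∧ V (g i) = 0 ∧ V (T i) = 0 ∧
      r i ≠ 0 ∧ T i ≠ 0)
    (hne : ∀ i ∈ t, ∀ j ∈ t, i ≠ j → V (v i / v j) ≠ 0) :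
    ∀ c : ι → F, (∀ i, V (c i) = 0) → ∑ i ∈ t, c i * v i = 0 → ∀ i ∈ t, c i = 0 := by
  classical
  have := cst_charZero (V := V)
  set q : t → (cst V)[X] := fun i =>
    qr ⟨r i, (h i i.2).2.1⟩ ⟨g i, (h i i.2).2.2.1⟩ ⟨T i, (h i i.2).2.2.2.1⟩ with hq
  have hq' : ∀ i, Squarefree (q i) := by
    intro i
    refine qr_squarefree ?_ ?_
    · intro h0
      exact (h i i.2).2.2.2.2.1 (congrArg Subtype.val h0)
    · intro h0
      exact (h i i.2).2.2.2.2.2 (congrArg Subtype.val h0)
  have hv : ∀ i : t, v i ^ 2 = aeval u (q i) := by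
    intro i
    rw [(h i i.2).1]
    simp only [hq, qr, map_sub, map_pow, map_add, map_mul, aeval_C, aeval_X]
    rfl
  have hv0 : ∀ i : t, v i ≠ 0 := by
    intro i h0
    have h1 := hv i
    rw [h0] at h1
    exact aeval_ne hu (q i) (hq' i).ne_zero (by rw [← h1]; ring)
  have h1 := linInd_sqrt hu q hq' (by
    rintro i j hij ⟨w, hw⟩
    obtain ⟨c, hc, hcw⟩ := Polynomial.isUnit_iff.1 w.isUnit
    refine hne j j.2 i i.2 (fun h => hij (Subtype.ext h).symm) ?_
    have e1 : v j ^ 2 = v i ^ 2 * (c : F) := by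
      rw [hv j, ← hw, ← hcw, map_mul, ← hv i, aeval_C]
      rfl
    have e2 : (v j / v i) ^ 2 = (c : F) := by
      have := hv0 i
      rw [div_pow, e1]
      field_simp
    have e3 : V ((v j / v i) ^ 2) = 0 := by
      rw [e2]
      exact c.2
    rw [sq, V.leibniz, smul_eq_mul] at e3
    have e4 : (v j / v i) * V (v j / v i) = 0 := by
      have h2 : (2 : F) ≠ 0 := two_ne_zero
      refine mul_left_cancel₀ h2 ?_
      linear_combination e3
    exact (mul_eq_zero.1 e4).resolve_left (div_ne_zero (hv0 j) (hv0 i))) (fun i => v i) hv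
  intro c hc hs i hi
  rw [Fintype.linearIndependent_iff] at h1
  have h2 := h1 (fun i => ⟨c i, (cst V)⟮u⟯.algebraMap_mem ⟨c i, hc i⟩⟩) (by
    have e : ∑ i : t, c i * v i = ∑ i ∈ t, c i * v i := Finset.sum_coe_sort t (fun i => c i * v i)
    calc _ = ∑ i : t, c i * v i := rfl
      _ = 0 := by rw [e, hs]) ⟨i, hi⟩
  exact congrArg Subtype.val h2

end Vale.Agent.P097.H791.Kum
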